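import Vale.Agent.H90.KTV.GraphMain

/-!
P335 (Kannan-Tetali-Vempala conjecture, simple undirected form): for every `n ≥ 4` and every
degree sequence `d` on `n` labelled vertices, the lazy switch chain of the problem is within
total variation distance `1/4` of the uniform distribution on the realizations of `d` after
at most `n ^ 6` steps, from every starting realization.

Route: the switch graph on the realizations of any degree sequence satisfies the Poincare
inequality with constant `2` (`Vale.Agent.H90.graph_poincare`); the mixing bound follows by
the standard `L^2` contraction of the lazy chain (`Vale.Agent.H12.Switch.mixing_of_poincare`).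
-/

namespace Vale.Agent.Results.P335.A_AllSequences

open Vale.Agent.H12.Switch

theorem result (n : ℕ) (hn : 4 ≤ n) (d : Fin n → ℕ) :
    ∃ t ≤ n ^ 6, ∀ G : Omega d,
      (1 / 2 : ℝ) * ∑ G', |(kernel d ^ t) G G' - 1 / (Fintype.card (Omega d) : ℝ)| ≤ 1 / 4 :=
  mixing_of_poincare n hn d (fun f hf => Vale.Agent.H90.graph_poincare d f hf)

end Vale.Agent.Results.P335.A_AllSequences
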