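import Vale.Agent.H90.KTV.GraphMain

/-!
P335 (Kannan-Tetali-Vempala conjecture, simple undirected form): for every `n ≥ 4` and every
degree sequence `d` on `n` labelled vertices, both of the following hold for the lazy switch
chain of the problem.

1. It is within total variation distance `1/4` of the uniform distribution on the realizations
   of `d` after at most `n ^ 6` steps, from every starting realization.
2. For every number of steps `t` and every starting realization, the square of the `L^1`
   distance to uniform (twice the total variation distance) is at most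
   `|Ω(d)| * (1 - 1 / (n (n-1) (n-2) (n-3))) ^ t`.

The first conjunct is the statement of `A_AllSequences`; the second is the decay estimate from
which it is derived, for all times.
-/

namespace Vale.Agent.Results.P335.A_AllSequencesDecay

open Vale.Agent.H12.Switch

theorem result (n : ℕ) (hn : 4 ≤ n) (d : Fin n → ℕ) :
    (∃ t ≤ n ^ 6, ∀ G : Omega d,
      (1 / 2 : ℝ) * ∑ G', |(kernel d ^ t) G G' - 1 / (Fintype.card (Omega d) : ℝ)| ≤ 1 / 4) ∧
    ∀ (t : ℕ) (G : Omega d),
      (∑ G', |(kernel d ^ t) G G' - 1 / (Fintype.card (Omega d) : ℝ)|) ^ 2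
        ≤ (Fintype.card (Omega d) : ℝ)
          * (1 - 1 / ((n : ℝ) * ((n : ℝ) - 1) * ((n : ℝ) - 2) * ((n : ℝ) - 3))) ^ t := by
  refine ⟨mixing_of_poincare n hn d (fun f hf => Vale.Agent.H90.graph_poincare d f hf), ?_⟩
  intro t G
  have hNeq : Fintype.card (Fin 4 ↪ Fin n) = n.descFactorial 4 := by
    rw [Fintype.card_embedding_eq]; simp
  have hNpos : 0 < Fintype.card (Fin 4 ↪ Fin n) := by
    rw [hNeq]
    exact Nat.pos_of_ne_zero (fun h => by
      rw [Nat.descFactorial_eq_zero_iff_lt] at h; omega)
  have hNr : (1 : ℝ) ≤ (Fintype.card (Fin 4 ↪ Fin n) : ℝ) := by exact_mod_cast hNpos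
  have h := l1_bound_of_poincare d hNpos 2 (by linarith)
    (fun f hf => Vale.Agent.H90.graph_poincare d f hf) t G
  have hcast : (Fintype.card (Fin 4 ↪ Fin n) : ℝ)
      = (n : ℝ) * ((n : ℝ) - 1) * ((n : ℝ) - 2) * ((n : ℝ) - 3) := by
    rw [hNeq]
    have h1 : 1 ≤ n := by omega
    have h2 : 2 ≤ n := by omega
    have h3 : 3 ≤ n := by omega
    have e : n.descFactorial 4 = n * (n - 1) * (n - 2) * (n - 3) := by
      simp [Nat.descFactorial_succ, Nat.descFactorial_zero]
      ring
    rw [e]
    push_cast [Nat.cast_sub h1, Nat.cast_sub h2, Nat.cast_sub h3]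
    ring
  have e : (1 - 2 / (2 * (Fintype.card (Fin 4 ↪ Fin n) : ℝ)))
      = 1 - 1 / ((n : ℝ) * ((n : ℝ) - 1) * ((n : ℝ) - 2) * ((n : ℝ) - 3)) := by
    rw [← hcast]
    field_simp
  rw [e] at h
  exact h

end Vale.Agent.Results.P335.A_AllSequencesDecay
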