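import Vale.Agent.H90.KTV.GraphMain

/-!
P335: the switch graph on the realizations of an arbitrary degree sequence has spectral gap
at least `2` (Poincare inequality with constant `2` for the unnormalised graph Laplacian):
for every real function `f` of mean zero on the realizations, four times the sum of the
squares of `f` is at most the sum of `(f G - f G') ^ 2` over all ordered pairs `(G, G')` of
realizations that differ by one switch.
-/

namespace Vale.Agent.Results.P335.B_SpectralGapTwo

open Vale.Agent.H12.Switch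

theorem result (n : ℕ) (d : Fin n → ℕ) (f : Omega d → ℝ) (hf : ∑ G, f G = 0) :
    4 * ∑ G, f G ^ 2 ≤ ∑ G : Omega d, ∑ G' : Omega d,
      Set.indicator {H : Omega d | ∃ a b c e : Fin n, a ≠ c ∧ b ≠ e ∧ G.1.Adj a b ∧
          G.1.Adj c e ∧ ¬ G.1.Adj a c ∧ ¬ G.1.Adj b e ∧ H.1 = swap G.1 a b c e}
        (fun H => (f G - f H) ^ 2) G' := by
  classical
  have h := Vale.Agent.H90.graph_poincare d f hf
  have e : ∑ G, f G * lapΩ d f G
      = (1 / 2 : ℝ) * ∑ G : Omega d, ∑ G' : Omega d,
          if adjΩ d G G' then (f G - f G') ^ 2 else 0 :=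
    Vale.Agent.H12.GapCore.inner_lap_self (adjΩ d) (adjΩ_symm d) f
  rw [e] at h
  have e2 : (∑ G : Omega d, ∑ G' : Omega d,
      Set.indicator {H : Omega d | ∃ a b c e : Fin n, a ≠ c ∧ b ≠ e ∧ G.1.Adj a b ∧
          G.1.Adj c e ∧ ¬ G.1.Adj a c ∧ ¬ G.1.Adj b e ∧ H.1 = swap G.1 a b c e}
        (fun H => (f G - f H) ^ 2) G')
      = ∑ G : Omega d, ∑ G' : Omega d, if adjΩ d G G' then (f G - f G') ^ 2 else 0 := by
    refine Finset.sum_congr rfl (fun G _ => Finset.sum_congr rfl (fun G' _ => ?_))
    rw [Set.indicator_apply]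
    refine if_congr ?_ rfl rfl
    rfl
  rw [e2]
  linarith

end Vale.Agent.Results.P335.B_SpectralGapTwo
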