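import Vale.Agent.H90.KTV.GraphMain

/-!
P335 (Kannan-Tetali-Vempala conjecture, simple undirected form): for every `n ≥ 4` and every
degree sequence `d` on `n` labelled vertices, both of the following hold.

1. The lazy switch chain of the problem is within total variation distance `1/4` of the uniform
   distribution on the realizations of `d` after at most `n ^ 6` steps, from every starting
   realization.
2. The switch graph on the realizations of `d` satisfies the Poincare inequality with constant
   `2`: for every real function `f` of mean zero on the realizations, four times the sum of the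
   squares of `f` is at most the sum of `(f G - f G') ^ 2` over all ordered pairs `(G, G')` of
   realizations that differ by one switch.

This is the conjunction of the statements of `A_AllSequences` and `B_SpectralGapTwo` (the latter
for `n ≥ 4`), proved from the same two library results.
-/

namespace Vale.Agent.Results.P335.C_MixingAndGap

open Vale.Agent.H12.Switch

theorem result (n : ℕ) (hn : 4 ≤ n) (d : Fin n → ℕ) :
    (∃ t ≤ n ^ 6, ∀ G : Omega d,
      (1 / 2 : ℝ) * ∑ G', |(kernel d ^ t) G G' - 1 / (Fintype.card (Omega d) : ℝ)| ≤ 1 / 4) ∧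
    ∀ f : Omega d → ℝ, ∑ G, f G = 0 →
      4 * ∑ G, f G ^ 2 ≤ ∑ G : Omega d, ∑ G' : Omega d,
        Set.indicator {H : Omega d | ∃ a b c e : Fin n, a ≠ c ∧ b ≠ e ∧ G.1.Adj a b ∧
            G.1.Adj c e ∧ ¬ G.1.Adj a c ∧ ¬ G.1.Adj b e ∧ H.1 = swap G.1 a b c e}
          (fun H => (f G - f H) ^ 2) G' := by
  classical
  refine ⟨mixing_of_poincare n hn d (fun f hf => Vale.Agent.H90.graph_poincare d f hf), ?_⟩
  intro f hf
  have h := Vale.Agent.H90.graph_poincare d f hf
  have e : ∑ G, f G * lapΩ d f G
      = (1 / 2 : ℝ) * ∑ G : Omega d, ∑ G' : Omega d,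
          if adjΩ d G G' then (f G - f G') ^ 2 else 0 :=
    Vale.Agent.H12.GapCore.inner_lap_self (adjΩ d) (adjΩ_symm d) f
  rw [e] at h
  have e2 : (∑ G : Omega d, ∑ G' : Omega d,
      Set.indicator {H : Omega d | ∃ a b c e : Fin n, a ≠ c ∧ b ≠ e ∧ G.1.Adj a b ∧
          G.1.Adj c e ∧ ¬ G.1.Adj a c ∧ ¬ G.1.Adj b e ∧ H.1 = swap G.1 a b c e}
        (fun H => (f G - f H) ^ 2) G')
      = ∑ G : Omega d, ∑ G' : Omega d, if adjΩ d G G' then (f G - f G') ^ 2 else 0 := by
    refine Finset.sum_congr rfl (fun G _ => Finset.sum_congr rfl (fun G' _ => ?_))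
    rw [Set.indicator_apply]
    refine if_congr ?_ rfl rfl
    rfl
  rw [e2]
  linarith

end Vale.Agent.Results.P335.C_MixingAndGap
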