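import Vale.Agent.H90.KTV.Main
import Vale.Agent.H79.KTV.Bridge
import Vale.Agent.H12.SplitBridge

/-!
P335 (Kannan-Tetali-Vempala conjecture, simple graphs): for every degree sequence that has a
split-graph realization, the lazy switch chain of the problem mixes within `n ^ 6` steps.

Route: the switch Laplacian of every class of 0/1 matrices with prescribed row and column sums
has spectral gap at least `2` (`Vale.Agent.H90.bip_main`, transported to the classes by
`Vale.Agent.H79.bip_gap_of_main`); the realizations of a split degree sequence form such a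
class, and the gap gives the mixing bound (`Vale.Agent.H12.Switch.mixing_split_of_bip`).
-/

namespace Vale.Agent.Results.P335.D_SplitSequences

open Vale.Agent.H12.Switch

theorem result (n : ℕ) (hn : 4 ≤ n) (d : Fin n → ℕ)
    (hsplit : ∃ (G₀ : Omega d) (A : Finset (Fin n)), IsSplit G₀.1 A) :
    ∃ t ≤ n ^ 6, ∀ G : Omega d,
      (1 / 2 : ℝ) * ∑ G', |(kernel d ^ t) G G' - 1 / (Fintype.card (Omega d) : ℝ)| ≤ 1 / 4 :=
  mixing_split_of_bip
    (fun _ _ _ _ _ _ r c f hf =>
      Vale.Agent.H79.bip_gap_of_main (fun g => Vale.Agent.H90.bip_main g) r c f hf)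
    n hn d hsplit

end Vale.Agent.Results.P335.D_SplitSequences
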